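import Mathlib
import Vale.Agent.P333.Model
import Vale.Agent.P333.H705.GrDefs

set_option autoImplicit false

/-!
P333: the greedy algorithm commutes with the replacement of every letter by a block of `m` letters.
-/

namespace Vale.Agent.P333.H220.Blow

open Vale.Agent.P333

/-- the block of the letter `a` -/
def blk (m a : ℕ) : List ℕ := (List.range m).map (fun i => m * a + i)

/-- every letter `a` is replaced by the block `m * a, m * a + 1, ..., m * a + m - 1` -/
def blow (m : ℕ) (s : List ℕ) : List ℕ := s.flatMap (blk m)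

@[simp] theorem blk_length (m a : ℕ) : (blk m a).length = m := by simp [blk]

@[simp] theorem blow_nil (m : ℕ) : blow m [] = [] := rfl

theorem blow_cons (m a : ℕ) (s : List ℕ) : blow m (a :: s) = blk m a ++ blow m s := rfl

theorem blow_append (m : ℕ) (s t : List ℕ) : blow m (s ++ t) = blow m s ++ blow m t := by
  simp [blow, List.flatMap_append]

@[simp] theorem blow_length (m : ℕ) (s : List ℕ) : (blow m s).length = m * s.length := by
  induction s with
  | nil => simp
  | cons a s ih => rw [blow_cons, List.length_append, blk_length, ih, List.length_cons]; ring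

theorem getElem?_blow (m : ℕ) (hm : 1 ≤ m) (s : List ℕ) : ∀ j : ℕ,
    (blow m s)[j]? = (s[j / m]?).map (fun a => m * a + j % m) := by
  induction s with
  | nil => intro j; simp
  | cons a s ih =>
      intro j
      rw [blow_cons]
      by_cases h : j < m
      · rw [List.getElem?_append_left (by simpa using h)]
        rw [Nat.div_eq_of_lt h, Nat.mod_eq_of_lt h]
        simp [blk, h]
      · push Not at h
        rw [List.getElem?_append_right (by simpa using h), blk_length, ih]
        have h1 : j / m = (j - m) / m + 1 := by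
          rw [Nat.div_eq_sub_div (by omega) h]
        have h2 : (j - m) % m = j % m := (Nat.mod_eq_sub_mod h).symm
        rw [h1, h2, List.getElem?_cons_succ]

theorem blow_inj (m : ℕ) (hm : 1 ≤ m) {s t : List ℕ} (h : blow m s = blow m t) : s = t := by
  apply List.ext_getElem?
  intro i
  have h1 := getElem?_blow m hm s (m * i)
  have h2 := getElem?_blow m hm t (m * i)
  rw [h, h2] at h1
  rw [Nat.mul_div_cancel_left i (by omega : 0 < m), Nat.mul_mod_right] at h1
  cases hs : s[i]? with
  | none =>
      cases ht : t[i]? with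
      | none => rfl
      | some b => rw [hs, ht] at h1; simp at h1
  | some a =>
      cases ht : t[i]? with
      | none => rw [hs, ht] at h1; simp at h1
      | some b =>
          rw [hs, ht] at h1
          simp only [Option.map_some, Option.some.injEq, Nat.add_zero] at h1
          have := Nat.eq_of_mul_eq_mul_left (by omega : 0 < m) h1
          rw [this]

theorem blow_injective (m : ℕ) (hm : 1 ≤ m) : Function.Injective (blow m) :=
  fun _ _ h => blow_inj m hm h

theorem blow_take (m : ℕ) (s : List ℕ) (k : ℕ) :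
    blow m (s.take k) = (blow m s).take (m * k) := by
  rcases le_total k s.length with h | h
  · conv_rhs => rw [← List.take_append_drop k s, blow_append]
    rw [List.take_left' ]
    rw [blow_length, List.length_take, min_eq_left h]
  · rw [List.take_of_length_le h, List.take_of_length_le]
    rw [blow_length]; exact Nat.mul_le_mul_left m h

theorem blow_drop (m : ℕ) (s : List ℕ) (k : ℕ) :
    blow m (s.drop k) = (blow m s).drop (m * k) := by
  rcases le_total k s.length with h | h
  · conv_rhs => rw [← List.take_append_drop k s, blow_append]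
    rw [List.drop_left']
    rw [blow_length, List.length_take, min_eq_left h]
  · rw [List.drop_of_length_le h, List.drop_of_length_le]
    · rfl
    · rw [blow_length]; exact Nat.mul_le_mul_left m h

/-- the residue of a letter of a blown up string is the residue of its position -/
theorem letter_mod (m : ℕ) (hm : 1 ≤ m) (s : List ℕ) (j a : ℕ) (h : (blow m s)[j]? = some a) :
    a % m = j % m := by
  rw [getElem?_blow m hm] at h
  cases hs : s[j / m]? with
  | none => rw [hs] at h; simp at h
  | some b =>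
      rw [hs] at h
      simp only [Option.map_some, Option.some.injEq] at h
      rw [← h, Nat.mul_add_mod]
      exact Nat.mod_mod j m

/-- the start of an occurrence is a multiple of `m` -/
theorem start_mod (m : ℕ) (hm : 1 ≤ m) {s t u v w : List ℕ} (hw : w ≠ [])
    (h1 : w <+: blow m s) (h2 : blow m t = u ++ w ++ v) : m ∣ u.length := by
  obtain ⟨a, w', rfl⟩ := List.exists_cons_of_ne_nil hw
  obtain ⟨z, hz⟩ := h1
  have ha : (blow m s)[0]? = some a := by rw [← hz]; rfl
  have hb : (blow m t)[u.length]? = some a := by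
    rw [h2, List.append_assoc, List.getElem?_append_right le_rfl]; simp
  have e1 := letter_mod m hm s 0 a ha
  have e2 := letter_mod m hm t _ a hb
  rw [e1] at e2
  exact Nat.dvd_of_mod_eq_zero (by rw [← e2]; exact Nat.zero_mod m)

theorem overlap_form (m : ℕ) (hm : 1 ≤ m) {x y w : List ℕ} (h1 : w <:+ blow m x)
    (h2 : w <+: blow m y) : ∃ w', w = blow m w' ∧ w' <:+ x ∧ w' <+: y := by
  by_cases hw : w = []
  · exact ⟨[], by simp [hw], List.nil_suffix, List.nil_prefix⟩
  · obtain ⟨u, hu⟩ := h1
    obtain ⟨c, hc⟩ := start_mod m hm (u := u) (v := []) (t := x) hw h2 (by rw [← hu]; simp)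
    have hl : u.length + w.length = m * x.length := by
      rw [← List.length_append, hu, blow_length]
    have hcx : c ≤ x.length := by
      have : m * c ≤ m * x.length := by omega
      exact Nat.le_of_mul_le_mul_left this (by omega)
    have hwl : w.length = m * (x.length - c) := by
      rw [Nat.mul_sub]; omega
    have e1 : w = blow m (x.drop c) := by
      rw [blow_drop, ← hu, ← hc, List.drop_left]
    have e2 : w = blow m (y.take (x.length - c)) := by
      rw [blow_take, ← hwl]; exact List.prefix_iff_eq_take.1 h2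
    refine ⟨x.drop c, e1, List.drop_suffix _ _, ?_⟩
    have : x.drop c = y.take (x.length - c) := blow_inj m hm (e1.symm.trans e2)
    rw [this]; exact List.take_prefix _ _

theorem blow_infix (m : ℕ) {s t : List ℕ} (h : s <:+: t) : blow m s <:+: blow m t := by
  obtain ⟨u, v, rfl⟩ := h
  rw [blow_append, blow_append]
  exact ⟨_, _, rfl⟩

theorem infix_of_blow (m : ℕ) (hm : 1 ≤ m) {s t : List ℕ} (h : blow m s <:+: blow m t) :
    s <:+: t := by
  by_cases hs : s = []
  · subst hs; exact List.nil_infix
  · obtain ⟨u, v, huv⟩ := h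
    have hne : blow m s ≠ [] := by
      intro h0
      have := congrArg List.length h0
      rw [blow_length] at this
      simp only [List.length_nil, Nat.mul_eq_zero, List.length_eq_zero_iff] at this
      rcases this with h | h
      · omega
      · exact hs h
    obtain ⟨c, hc⟩ := start_mod m hm (s := s) (t := t) hne (List.prefix_refl _) huv.symm
    have h1 : blow m ((t.drop c).take s.length) = blow m s := by
      rw [blow_take, blow_drop, ← huv, List.append_assoc, ← hc, List.drop_left, ← blow_length,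
        List.take_left]
    have h2 := blow_inj m hm h1
    rw [← h2]
    exact (List.take_prefix _ _).isInfix.trans (List.drop_suffix _ _).isInfix

theorem isOverlap_blow (m : ℕ) (hm : 1 ≤ m) {x y : List ℕ} {k : ℕ}
    (h : Greedy.IsOverlap x y k) : Greedy.IsOverlap (blow m x) (blow m y) (m * k) := by
  obtain ⟨⟨w, hw, h1, h2⟩, h3⟩ := h
  refine ⟨⟨blow m w, by rw [blow_length, hw], ?_, ?_⟩, ?_⟩
  · obtain ⟨u, rfl⟩ := h1; rw [blow_append]; exact List.suffix_append _ _
  · obtain ⟨u, rfl⟩ := h2; rw [blow_append]; exact List.prefix_append _ _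
  · rintro l ⟨v, rfl, g1, g2⟩
    obtain ⟨v', rfl, g3, g4⟩ := overlap_form m hm g1 g2
    rw [blow_length]
    exact Nat.mul_le_mul_left m (h3 ⟨v', rfl, g3, g4⟩)

theorem isOverlap_unique {x y : List ℕ} {k l : ℕ} (h : Greedy.IsOverlap x y k)
    (h' : Greedy.IsOverlap x y l) : k = l := IsGreatest.unique h h'

theorem exists_isOverlap (x y : List ℕ) : ∃ k, Greedy.IsOverlap x y k := by
  classical
  have hne : ({k : ℕ | ∃ w : List ℕ, w.length = k ∧ w <:+ x ∧ w <+: y}).Nonempty :=
    ⟨0, [], rfl, List.nil_suffix, List.nil_prefix⟩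
  have hb : BddAbove {k : ℕ | ∃ w : List ℕ, w.length = k ∧ w <:+ x ∧ w <+: y} := by
    refine ⟨x.length, ?_⟩
    rintro k ⟨w, rfl, h, -⟩
    exact h.length_le
  exact ⟨_, Nat.sSup_mem hne hb, fun k hk => le_csSup hb hk⟩

theorem perm_blow {m : ℕ} {F G : List (List ℕ)} (h : (F.map (blow m)).Perm G) :
    ∃ L, F.Perm L ∧ G = L.map (blow m) := by
  have e := congrFun (congrFun (List.eq_map_comp_perm (blow m)) G) F
  have h' : Relation.Comp (fun a b => a = List.map (blow m) b) (fun a b => a.Perm b) G F := by
    rw [e]; exact h.symm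
  obtain ⟨L, h1, h2⟩ := h'
  exact ⟨L, h2.symm, h1⟩

theorem perm_blow_two {m : ℕ} {F : List (List ℕ)} {a b : List ℕ} {R : List (List ℕ)}
    (h : (F.map (blow m)).Perm (a :: b :: R)) :
    ∃ a' b' R', F.Perm (a' :: b' :: R') ∧ a = blow m a' ∧ b = blow m b' ∧
      R = R'.map (blow m) := by
  obtain ⟨L, hL, hE⟩ := perm_blow h
  match L, hL, hE with
  | [], _, hE => simp at hE
  | [_], _, hE => simp at hE
  | a' :: b' :: R', hL, hE =>
      simp only [List.map_cons, List.cons.injEq] at hE
      exact ⟨a', b', R', hL, hE.1, hE.2.1, hE.2.2⟩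

theorem merge_blow (m : ℕ) (x y : List ℕ) (k : ℕ) :
    blow m (x.take (x.length - k) ++ y) =
      (blow m x).take ((blow m x).length - m * k) ++ blow m y := by
  rw [blow_append, blow_take, blow_length, Nat.mul_sub]

theorem step_blow (m : ℕ) (hm : 1 ≤ m) {F F' : List (List ℕ)} (h : Greedy.Step F F') :
    Greedy.Step (F.map (blow m)) (F'.map (blow m)) := by
  obtain ⟨x, y, R, k, hF, ho, hmax, rfl⟩ := h
  refine ⟨blow m x, blow m y, R.map (blow m), m * k, by simpa using hF.map (blow m),
    isOverlap_blow m hm ho, ?_, ?_⟩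
  · intro z w R' l hp hl
    obtain ⟨z', w', R'', h1, rfl, rfl, rfl⟩ := perm_blow_two hp
    obtain ⟨l', hl'⟩ := exists_isOverlap z' w'
    rw [isOverlap_unique hl (isOverlap_blow m hm hl')]
    exact Nat.mul_le_mul_left m (hmax z' w' R'' l' h1 hl')
  · rw [List.map_cons, merge_blow]

theorem step_blow_conv (m : ℕ) (hm : 1 ≤ m) {F G : List (List ℕ)}
    (h : Greedy.Step (F.map (blow m)) G) : ∃ F', Greedy.Step F F' ∧ G = F'.map (blow m) := by
  obtain ⟨x, y, R, k, hF, ho, hmax, rfl⟩ := h
  obtain ⟨x', y', R', h1, rfl, rfl, rfl⟩ := perm_blow_two hF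
  obtain ⟨k', hk'⟩ := exists_isOverlap x' y'
  have hk : k = m * k' := isOverlap_unique ho (isOverlap_blow m hm hk')
  subst hk
  refine ⟨(x'.take (x'.length - k') ++ y') :: R', ⟨x', y', R', k', h1, hk', ?_, rfl⟩, ?_⟩
  · intro z w R'' l hp hl
    have := hmax (blow m z) (blow m w) (R''.map (blow m)) (m * l)
      (by simpa using hp.map (blow m)) (isOverlap_blow m hm hl)
    exact Nat.le_of_mul_le_mul_left this (by omega)
  · rw [List.map_cons, merge_blow]

theorem reduced_blow (m : ℕ) (hm : 1 ≤ m) {S F : List (List ℕ)} (h : Greedy.Reduced S F) :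
    Greedy.Reduced (S.map (blow m)) (F.map (blow m)) := by
  obtain ⟨h1, h2⟩ := h
  refine ⟨h1.map (blow_injective m hm), ?_⟩
  intro s
  constructor
  · intro hs
    obtain ⟨s', hs', rfl⟩ := List.mem_map.1 hs
    obtain ⟨h3, h4⟩ := (h2 s').1 hs'
    refine ⟨List.mem_map_of_mem h3, ?_⟩
    intro t ht hst
    obtain ⟨t', ht', rfl⟩ := List.mem_map.1 ht
    rw [h4 t' ht' (infix_of_blow m hm hst)]
  · rintro ⟨hs, h3⟩
    obtain ⟨s', hs', rfl⟩ := List.mem_map.1 hs
    refine List.mem_map_of_mem ((h2 s').2 ⟨hs', ?_⟩)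
    intro t ht hst
    exact blow_inj m hm (h3 _ (List.mem_map_of_mem ht) (blow_infix m hst))

theorem reduced_blow_conv (m : ℕ) (hm : 1 ≤ m) {S G : List (List ℕ)}
    (h : Greedy.Reduced (S.map (blow m)) G) :
    ∃ F, Greedy.Reduced S F ∧ G = F.map (blow m) := by
  obtain ⟨h1, h2⟩ := h
  have hall : ∀ s ∈ G, ∃ s', s = blow m s' := by
    intro s hs
    obtain ⟨s', -, rfl⟩ := List.mem_map.1 ((h2 s).1 hs).1
    exact ⟨s', rfl⟩
  obtain ⟨F, rfl⟩ : ∃ F : List (List ℕ), G = F.map (blow m) := by
    clear h1 h2
    induction G with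
    | nil => exact ⟨[], rfl⟩
    | cons g G ih =>
        obtain ⟨F, rfl⟩ := ih (fun s hs => hall s (List.mem_cons_of_mem _ hs))
        obtain ⟨g', rfl⟩ := hall g List.mem_cons_self
        exact ⟨g' :: F, rfl⟩
  refine ⟨F, ⟨h1.of_map _, ?_⟩, rfl⟩
  intro s
  constructor
  · intro hs
    obtain ⟨h3, h4⟩ := (h2 (blow m s)).1 (List.mem_map_of_mem hs)
    refine ⟨(List.mem_map_of_injective (blow_injective m hm)).1 h3, ?_⟩
    intro t ht hst
    exact blow_inj m hm (h4 _ (List.mem_map_of_mem ht) (blow_infix m hst))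
  · rintro ⟨hs, h3⟩
    refine (List.mem_map_of_injective (blow_injective m hm)).1 ((h2 _).2
      ⟨List.mem_map_of_mem hs, ?_⟩)
    intro t ht hst
    obtain ⟨t', ht', rfl⟩ := List.mem_map.1 ht
    rw [h3 t' ht' (infix_of_blow m hm hst)]

theorem output_blow (m : ℕ) (hm : 1 ≤ m) {S : List (List ℕ)} {t : List ℕ}
    (h : Greedy.Output S t) : Greedy.Output (S.map (blow m)) (blow m t) := by
  obtain ⟨F, h1, h2⟩ := h
  refine ⟨F.map (blow m), reduced_blow m hm h1, ?_⟩
  have : ∀ G, Relation.ReflTransGen Greedy.Step F G →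
      Relation.ReflTransGen Greedy.Step (F.map (blow m)) (G.map (blow m)) := by
    intro G hG
    induction hG with
    | refl => exact Relation.ReflTransGen.refl
    | tail _ hs ih => exact ih.tail (step_blow m hm hs)
  simpa using this _ h2

theorem output_blow_conv (m : ℕ) (hm : 1 ≤ m) {S : List (List ℕ)} {t' : List ℕ}
    (h : Greedy.Output (S.map (blow m)) t') :
    ∃ t, Greedy.Output S t ∧ t' = blow m t := by
  obtain ⟨G, h1, h2⟩ := h
  obtain ⟨F, h3, rfl⟩ := reduced_blow_conv m hm h1
  have : ∀ G, Relation.ReflTransGen Greedy.Step (F.map (blow m)) G →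
      ∃ F', Relation.ReflTransGen Greedy.Step F F' ∧ G = F'.map (blow m) := by
    intro G hG
    induction hG with
    | refl => exact ⟨F, Relation.ReflTransGen.refl, rfl⟩
    | tail _ hs ih =>
        obtain ⟨F', h4, rfl⟩ := ih
        obtain ⟨F'', h5, h6⟩ := step_blow_conv m hm hs
        exact ⟨F'', h4.tail h5, h6⟩
  obtain ⟨F', h4, h5⟩ := this _ h2
  match F', h4, h5 with
  | [], _, h5 => simp at h5
  | [t], h4, h5 =>
      simp only [List.map_cons, List.map_nil, List.cons.injEq, and_true] at h5
      exact ⟨t, ⟨F, h3, h4⟩, h5⟩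
  | _ :: _ :: _, _, h5 => simp at h5

theorem isSuperstring_blow (m : ℕ) {S : List (List ℕ)} {T : List ℕ} (h : IsSuperstring S T) :
    IsSuperstring (S.map (blow m)) (blow m T) := by
  intro s hs
  obtain ⟨s', hs', rfl⟩ := List.mem_map.1 hs
  exact blow_infix m (h s' hs')

theorem exists_superstring (S : List (List ℕ)) :
    ∃ T : List ℕ, IsSuperstring S T ∧ T.length = opt S := by
  have hne : ({n : ℕ | ∃ T : List ℕ, IsSuperstring S T ∧ T.length = n}).Nonempty := by
    refine ⟨_, S.flatten, ?_, rfl⟩
    intro s hs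
    exact List.infix_of_mem_flatten hs
  exact Nat.sInf_mem hne

theorem opt_blow_le (m : ℕ) (S : List (List ℕ)) : opt (S.map (blow m)) ≤ m * opt S := by
  obtain ⟨T, h1, h2⟩ := exists_superstring S
  rw [← h2, ← blow_length]
  exact Nat.sInf_le ⟨_, isSuperstring_blow m h1, rfl⟩

theorem le_opt_blow (m : ℕ) {S : List (List ℕ)} {s : List ℕ} (hs : s ∈ S) :
    m * s.length ≤ opt (S.map (blow m)) := by
  obtain ⟨T, h1, h2⟩ := exists_superstring (S.map (blow m))
  rw [← h2, ← blow_length]
  exact (h1 _ (List.mem_map_of_mem hs)).length_le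

/-- The existence form, with arbitrarily long optimal superstrings. -/
theorem lift_exists {a b : ℕ} {S : List (List ℕ)} {t : List ℕ} (hr : Greedy.Reduced S S)
    (ho : Greedy.Output S t) (hlt : a * opt S < b * t.length) (hne : ∃ s ∈ S, s ≠ [])
    (n : ℕ) :
    ∃ (S' : List (List ℕ)) (t' : List ℕ), n ≤ opt S' ∧ Greedy.Reduced S' S' ∧
      Greedy.Output S' t' ∧ a * opt S' < b * t'.length := by
  obtain ⟨s, hs, hs0⟩ := hne
  have hm : 1 ≤ n + 1 := by omega
  refine ⟨S.map (blow (n + 1)), blow (n + 1) t, ?_, reduced_blow _ hm hr, output_blow _ hm ho, ?_⟩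
  · have h1 := le_opt_blow (n + 1) hs
    have h2 : 1 ≤ s.length := List.length_pos_iff.2 hs0
    nlinarith
  · have h1 := opt_blow_le (n + 1) S
    rw [blow_length]
    calc a * opt (S.map (blow (n + 1))) ≤ a * ((n + 1) * opt S) := Nat.mul_le_mul_left a h1
      _ = (n + 1) * (a * opt S) := by ring
      _ < (n + 1) * (b * t.length) := Nat.mul_lt_mul_of_pos_left hlt (by omega)
      _ = b * ((n + 1) * t.length) := by ring

/-- The form for all tie-breakings, with arbitrarily long optimal superstrings. -/
theorem lift_forall {a b : ℕ} {S : List (List ℕ)} (hr : Greedy.Reduced S S)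
    (hex : ∃ t, Greedy.Output S t)
    (hlt : ∀ t, Greedy.Output S t → a * opt S < b * t.length) (hne : ∃ s ∈ S, s ≠ [])
    (n : ℕ) :
    ∃ (S' : List (List ℕ)), n ≤ opt S' ∧ Greedy.Reduced S' S' ∧
      (∃ t', Greedy.Output S' t') ∧
      ∀ t', Greedy.Output S' t' → a * opt S' < b * t'.length := by
  obtain ⟨s, hs, hs0⟩ := hne
  have hm : 1 ≤ n + 1 := by omega
  obtain ⟨t0, ht0⟩ := hex
  refine ⟨S.map (blow (n + 1)), ?_, reduced_blow _ hm hr, ⟨_, output_blow _ hm ht0⟩, ?_⟩
  · have h1 := le_opt_blow (n + 1) hs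
    have h2 : 1 ≤ s.length := List.length_pos_iff.2 hs0
    nlinarith
  · intro t' ht'
    obtain ⟨t, ht, rfl⟩ := output_blow_conv _ hm ht'
    have h1 := opt_blow_le (n + 1) S
    rw [blow_length]
    calc a * opt (S.map (blow (n + 1))) ≤ a * ((n + 1) * opt S) := Nat.mul_le_mul_left a h1
      _ = (n + 1) * (a * opt S) := by ring
      _ < (n + 1) * (b * t.length) := Nat.mul_lt_mul_of_pos_left (hlt t ht) (by omega)
      _ = b * ((n + 1) * t.length) := by ring

end Vale.Agent.P333.H220.Blow
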