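import Vale.Agent.P333.H220.Blow
import Vale.Agent.P333.H984.Tf.Main

set_option autoImplicit false

/-!
P333: the greedy conjecture is false for every way of breaking the ties, by a constant factor, with
arbitrarily long shortest superstrings.
-/

namespace Vale.Agent.P333.H220.FinA

open Vale.Agent.P333 Vale.Agent.P333.H220.Blow

/-- **Every output of the greedy algorithm is longer than `203 / 100` times a shortest superstring,
with arbitrarily long shortest superstrings.** -/
theorem all (n : ℕ) : ∃ S : List (List ℕ), n ≤ opt S ∧ Greedy.Reduced S S ∧
    (∃ t, Greedy.Output S t) ∧ ∀ t, Greedy.Output S t → 203 * opt S < 100 * t.length := by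
  refine lift_forall (S := H984.Tf.fam.map H984.Num.str) H984.Tf.reduced H984.Tf.outs.1 ?_ ?_ n
  · intro t ht
    have h1 := H984.Tf.outs.2 t ht
    have h2 := H984.Tf.opt_le
    omega
  · decide +kernel

end Vale.Agent.P333.H220.FinA
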